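import Mathlib

set_option autoImplicit false
set_option linter.unusedSectionVars false

namespace Crest.Agent.R57

open Finset

variable {V : Type*} [Fintype V] [DecidableEq V]

/-- closed out-neighbourhood of a set -/
def G (A : V → Finset V) (S : Finset V) : Finset V := S ∪ S.biUnion A

/-- weight of a set -/
def W (w : V → ℝ) (S : Finset V) : ℝ := ∑ x ∈ S, w x

/-- `w(N1 S) - w(N2 S)` -/
def phi (A : V → Finset V) (w : V → ℝ) (S : Finset V) : ℝ :=
  2 * W w (G A S) - W w S - W w (G A (G A S))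

/-- oriented graph -/
def Ori (A : V → Finset V) : Prop := (∀ v, v ∉ A v) ∧ ∀ u v, v ∈ A u → u ∉ A v

def arcs (A : V → Finset V) : ℕ := ∑ v, (A v).card

/-- weighted counterexample -/
def Cex (A : V → Finset V) (w : V → ℝ) : Prop := Ori A ∧ ∀ v, 0 < phi A w {v}

/-- extremal counterexample: deficiency vector Pareto-maximal, then fewest arcs -/
def Ext (A : V → Finset V) (w : V → ℝ) : Prop :=
  Cex A w ∧ ∀ A', Ori A' → (∀ v, phi A w {v} ≤ phi A' w {v}) →
    (∀ v, phi A' w {v} = phi A w {v}) ∧ arcs A ≤ arcs A'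

lemma mem_G {A : V → Finset V} {S : Finset V} {y : V} :
    y ∈ G A S ↔ y ∈ S ∨ ∃ x ∈ S, y ∈ A x := by
  simp [G]

lemma subset_G (A : V → Finset V) (S : Finset V) : S ⊆ G A S := fun _ h => mem_G.2 (Or.inl h)

lemma G_mono (A : V → Finset V) {S T : Finset V} (h : S ⊆ T) : G A S ⊆ G A T := by
  intro y hy
  rcases mem_G.1 hy with h1 | ⟨x, hx, h1⟩
  · exact mem_G.2 (Or.inl (h h1))
  · exact mem_G.2 (Or.inr ⟨x, h hx, h1⟩)

lemma G_union (A : V → Finset V) (S T : Finset V) : G A (S ∪ T) = G A S ∪ G A T := by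
  ext y; simp only [mem_G, mem_union]
  constructor
  · rintro ((h | h) | ⟨x, hx | hx, h⟩)
    · exact Or.inl (Or.inl h)
    · exact Or.inr (Or.inl h)
    · exact Or.inl (Or.inr ⟨x, hx, h⟩)
    · exact Or.inr (Or.inr ⟨x, hx, h⟩)
  · rintro ((h | ⟨x, hx, h⟩) | (h | ⟨x, hx, h⟩))
    · exact Or.inl (Or.inl h)
    · exact Or.inr ⟨x, Or.inl hx, h⟩
    · exact Or.inl (Or.inr h)
    · exact Or.inr ⟨x, Or.inr hx, h⟩

lemma mem_G_single {A : V → Finset V} {v y : V} : y ∈ G A {v} ↔ y = v ∨ y ∈ A v := by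
  simp [mem_G]

lemma W_eq (w : V → ℝ) (S : Finset V) : W w S = ∑ y, if y ∈ S then w y else 0 := by
  simp [W, Finset.sum_ite_mem]

lemma W_mono {w : V → ℝ} (hw : ∀ v, 0 ≤ w v) {S T : Finset V} (h : S ⊆ T) : W w S ≤ W w T :=
  Finset.sum_le_sum_of_subset_of_nonneg h (fun x _ _ => hw x)

lemma W_nonneg {w : V → ℝ} (hw : ∀ v, 0 ≤ w v) (S : Finset V) : 0 ≤ W w S :=
  Finset.sum_nonneg (fun x _ => hw x)

lemma W_union {w : V → ℝ} {S T : Finset V} (h : Disjoint S T) : W w (S ∪ T) = W w S + W w T :=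
  Finset.sum_union h

lemma W_sdiff {w : V → ℝ} {S T : Finset V} (h : S ⊆ T) : W w (T \ S) = W w T - W w S := by
  have := Finset.sum_sdiff (f := w) h
  simp only [W]; linarith

lemma exists_ext {A : V → Finset V} {w : V → ℝ} (h : Cex A w) : ∃ A', Ext A' w := by
  classical
  let C : Finset (V → Finset V) := univ.filter (fun B => Cex B w)
  have hC : C.Nonempty := ⟨A, by simp [C, h]⟩
  obtain ⟨B, hB, hBmax⟩ := C.exists_max_image (fun B => ∑ v, phi B w {v}) hC
  let C' := C.filter (fun B' => ∑ v, phi B' w {v} = ∑ v, phi B w {v})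
  have hC' : C'.Nonempty := ⟨B, by simp [C', hB]⟩
  obtain ⟨D, hD, hDmin⟩ := C'.exists_min_image arcs hC'
  have hD1 : Cex D w := by
    have := (mem_filter.1 hD).1
    simpa [C] using this
  have hD2 := (mem_filter.1 hD).2
  refine ⟨D, hD1, fun A' hO hle => ?_⟩
  have hA' : Cex A' w := ⟨hO, fun v => lt_of_lt_of_le (hD1.2 v) (hle v)⟩
  have hA'C : A' ∈ C := by simp [C, hA']
  have h1 := hBmax A' hA'C
  have h2 : ∑ v, phi D w {v} ≤ ∑ v, phi A' w {v} := Finset.sum_le_sum (fun v _ => hle v)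
  have h3 : ∑ v, phi D w {v} = ∑ v, phi A' w {v} := by linarith
  have h4 := (Finset.sum_eq_sum_iff_of_le (s := univ) (fun v _ => hle v)).1 h3
  refine ⟨fun v => (h4 v (mem_univ v)).symm, hDmin A' ?_⟩
  exact mem_filter.2 ⟨hA'C, by linarith⟩

/-- `w(GT \ (S ∪ T)) - w(T)` -/
def psi (A : V → Finset V) (w : V → ℝ) (S T : Finset V) : ℝ := W w (G A T \ (S ∪ T)) - W w T

/-- delete the arcs from `S` to the outside of `S ∪ T` -/
def del (A : V → Finset V) (S T : Finset V) (v : V) : Finset V :=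
  if v ∈ S then A v ∩ (S ∪ T) else A v

lemma del_subset (A : V → Finset V) (S T : Finset V) (v : V) : del A S T v ⊆ A v := by
  unfold del; split_ifs
  · exact inter_subset_left
  · exact Subset.rfl

lemma G_le {A A' : V → Finset V} (h : ∀ v, A' v ⊆ A v) (S : Finset V) : G A' S ⊆ G A S := by
  intro y hy
  rcases mem_G.1 hy with h1 | ⟨x, hx, h1⟩
  · exact mem_G.2 (Or.inl h1)
  · exact mem_G.2 (Or.inr ⟨x, hx, h x h1⟩)

lemma Ori.mono {A A' : V → Finset V} (hA : Ori A) (h : ∀ v, A' v ⊆ A v) : Ori A' :=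
  ⟨fun v hv => hA.1 v (h v hv), fun u v huv hvu => hA.2 u v (h u huv) (h v hvu)⟩

lemma pt (r : ℝ) (h0 : 0 ≤ r) (p1 p2 p3 p4 p5 p6 p7 : Prop) [Decidable p1] [Decidable p2]
    [Decidable p3] [Decidable p4] [Decidable p5] [Decidable p6] [Decidable p7]
    (a1 : p1 → p3) (a2 : p1 → p4 ∨ p6) (a3 : p7 → p3) (a4 : p2 → p7) (a5 : p2 → ¬p4 ∧ ¬p5) :
    (if p1 then r else 0) + (if p2 then r else 0)
      + (if (p6 ∨ p7) ∧ ¬(p4 ∨ (p5 ∨ p2)) then r else 0)
      ≤ (if p3 then r else 0) + (if p6 ∧ ¬(p4 ∨ p5) then r else 0) := by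
  by_cases b1 : p1 <;> by_cases b2 : p2 <;> by_cases b3 : p3 <;> by_cases b4 : p4 <;>
    by_cases b5 : p5 <;> by_cases b6 : p6 <;> by_cases b7 : p7 <;> simp_all

lemma del_phi {A : V → Finset V} {w : V → ℝ} (hw : ∀ v, 0 ≤ w v) {S T : Finset V}
    (hT : T ⊆ G A S \ S) (hmin : ∀ T', T ⊆ T' → T' ⊆ G A S \ S → psi A w S T ≤ psi A w S T')
    (v : V) : phi A w {v} ≤ phi (del A S T) w {v} := by
  set A' := del A S T with hA'
  have hsub : ∀ v, A' v ⊆ A v := del_subset A S T
  have hH : G A' (G A' {v}) ⊆ G A (G A {v}) :=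
    (G_le hsub _).trans (G_mono A (G_le hsub _))
  by_cases hv : v ∈ S
  · set C := A v \ (S ∪ T) with hC
    have hCs : C ⊆ G A S \ S := by
      intro y hy
      rw [hC, mem_sdiff, mem_union, not_or] at hy
      exact mem_sdiff.2 ⟨mem_G.2 (Or.inr ⟨v, hv, hy.1⟩), hy.2.1⟩
    have hm := hmin (T ∪ C) subset_union_left (union_subset hT hCs)
    have hAv : A' v = A v ∩ (S ∪ T) := by simp [hA', del, hv]
    have hG1 : G A' {v} ⊆ S ∪ T := by
      intro y hy
      rcases mem_G_single.1 hy with rfl | hy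
      · exact mem_union_left _ hv
      · rw [hAv] at hy; exact (mem_inter.1 hy).2
    have hH' : G A' (G A' {v}) ⊆ S ∪ G A T := by
      intro y hy
      rcases mem_G.1 hy with h1 | ⟨x, hx, h1⟩
      · rcases mem_union.1 (hG1 h1) with h | h
        · exact mem_union_left _ h
        · exact mem_union_right _ (subset_G A T h)
      · by_cases hxS : x ∈ S
        · have : A' x = A x ∩ (S ∪ T) := by simp [hA', del, hxS]
          rw [this] at h1
          rcases mem_union.1 (mem_inter.1 h1).2 with h | h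
          · exact mem_union_left _ h
          · exact mem_union_right _ (subset_G A T h)
        · have hxT : x ∈ T := (mem_union.1 (hG1 hx)).resolve_left hxS
          exact mem_union_right _ (mem_G.2 (Or.inr ⟨x, hxT, hsub x h1⟩))
    have hCv : C ⊆ G A {v} := fun y hy => mem_G_single.2 (Or.inr (mem_sdiff.1 hy).1)
    have hGC : G A C ⊆ G A (G A {v}) := G_mono A hCv
    have hCd : ∀ y ∈ C, y ∉ S ∧ y ∉ T := by
      intro y hy
      have := (mem_sdiff.1 hy).2
      rw [mem_union, not_or] at this; exact this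
    have e1 : W w (G A {v}) = W w (G A' {v}) + W w C := by
      rw [← W_union]
      · congr 1
        ext y
        simp only [mem_union, mem_G_single, hAv, hC, mem_inter, mem_sdiff]
        tauto
      · rw [Finset.disjoint_left]
        intro y hy hyC
        have := hCd y hyC
        rcases mem_union.1 (hG1 hy) with h | h
        · exact this.1 h
        · exact this.2 h
    have e2 : W w (T ∪ C) = W w T + W w C :=
      W_union (Finset.disjoint_left.2 (fun y hy hyC => (hCd y hyC).2 hy))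
    have key : W w (G A' (G A' {v})) + W w C + W w (G A (T ∪ C) \ (S ∪ (T ∪ C)))
        ≤ W w (G A (G A {v})) + W w (G A T \ (S ∪ T)) := by
      simp only [W_eq, ← Finset.sum_add_distrib]
      refine Finset.sum_le_sum (fun y _ => ?_)
      have h0 := hw y
      have a1 : y ∈ G A' (G A' {v}) → y ∈ G A (G A {v}) := fun h => hH h
      have a2 : y ∈ G A' (G A' {v}) → y ∈ S ∨ y ∈ G A T := fun h => mem_union.1 (hH' h)
      have a3 : y ∈ G A C → y ∈ G A (G A {v}) := fun h => hGC h
      have a4 : y ∈ C → y ∈ G A C := fun h => subset_G A C h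
      have a5 := hCd y
      have := pt (w y) h0 _ _ _ _ _ _ _ a1 a2 a3 a4 a5
      refine le_of_eq_of_le ?_ (le_of_le_of_eq this ?_)
      · congr 1
        refine if_congr ?_ rfl rfl
        rw [G_union, mem_sdiff, mem_union, mem_union, mem_union]
      · congr 1
        refine if_congr ?_ rfl rfl
        rw [mem_sdiff, mem_union]
    simp only [psi] at hm
    simp only [phi]
    linarith
  · have : G A' {v} = G A {v} := by
      ext y; simp [mem_G_single, hA', del, hv]
    have h2 := W_mono hw hH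
    simp only [phi]
    rw [this] at h2 ⊢
    linarith

/-- F1, unique-minimiser form -/
theorem Ext.psi_lt {A : V → Finset V} {w : V → ℝ} (hw : ∀ v, 0 ≤ w v) (h : Ext A w)
    (S T : Finset V) (hT : T ⊆ G A S \ S) (hne : T ≠ G A S \ S) :
    psi A w S (G A S \ S) < psi A w S T := by
  by_contra hlt
  push Not at hlt
  obtain ⟨T0, hT0, hmin0⟩ := (G A S \ S).powerset.exists_min_image (psi A w S)
    ⟨T, mem_powerset.2 hT⟩
  obtain ⟨T1, hT1, hne1, hmin⟩ : ∃ T1, T1 ⊆ G A S \ S ∧ T1 ≠ G A S \ S ∧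
      ∀ T', T' ⊆ G A S \ S → psi A w S T1 ≤ psi A w S T' := by
    by_cases e : T0 = G A S \ S
    · refine ⟨T, hT, hne, fun T' hT' => hlt.trans ?_⟩
      have := hmin0 T' (mem_powerset.2 hT'); rwa [e] at this
    · exact ⟨T0, mem_powerset.1 hT0, e, fun T' hT' => hmin0 T' (mem_powerset.2 hT')⟩
  have h1 := (h.2 (del A S T1) (h.1.1.mono (del_subset A S T1))
    (del_phi hw hT1 (fun T' _ h2 => hmin T' h2))).2
  obtain ⟨y, hy, hy1⟩ : ∃ y ∈ G A S \ S, y ∉ T1 := by
    by_contra hc; push Not at hc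
    exact hne1 (Subset.antisymm hT1 hc)
  obtain ⟨hyG, hyS⟩ := mem_sdiff.1 hy
  obtain ⟨x, hx, hyx⟩ := (mem_G.1 hyG).resolve_left hyS
  have : arcs (del A S T1) < arcs A := by
    refine Finset.sum_lt_sum (fun v _ => card_le_card (del_subset A S T1 v)) ⟨x, mem_univ x, ?_⟩
    refine card_lt_card ⟨del_subset A S T1 x, fun hs => ?_⟩
    have := hs hyx
    simp [del, hx, hyS, hy1] at this
  omega

lemma psi_full (A : V → Finset V) (w : V → ℝ) (S : Finset V) :
    psi A w S (G A S \ S) = - phi A w S := by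
  have h1 : S ∪ (G A S \ S) = G A S := union_sdiff_of_subset (subset_G A S)
  have h2 : G A (G A S \ S) \ G A S = G A (G A S) \ G A S := by
    conv_rhs => rw [← h1, G_union, h1]
    ext y; simp only [mem_sdiff, mem_union]; tauto
  rw [psi, h1, h2, W_sdiff (subset_G A _), W_sdiff (subset_G A _), phi]; ring

/-- F1 -/
theorem Ext.phi_pos {A : V → Finset V} {w : V → ℝ} (hw : ∀ v, 0 ≤ w v) (h : Ext A w)
    (S : Finset V) (hS : G A S ≠ S) : 0 < phi A w S := by
  have hne : (∅ : Finset V) ≠ G A S \ S := by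
    intro e
    exact hS (Subset.antisymm (sdiff_eq_empty_iff_subset.1 e.symm) (subset_G A S))
  have := h.psi_lt hw S ∅ (empty_subset _) hne
  rw [psi_full] at this
  have e : psi A w S ∅ = 0 := by simp [psi, G, W]
  linarith

theorem Ext.phi_nonneg {A : V → Finset V} {w : V → ℝ} (hw : ∀ v, 0 ≤ w v) (h : Ext A w)
    (S : Finset V) : 0 ≤ phi A w S := by
  by_cases hS : G A S = S
  · simp only [phi, hS]; linarith
  · exact (h.phi_pos hw S hS).le

/-- MAX: rewiring `x` to an adoptable set `T` does not raise the deficiency of `x` -/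
theorem Ext.adopt {A : V → Finset V} {w : V → ℝ} (hw : ∀ v, 0 ≤ w v) (h : Ext A w)
    (x : V) (T : Finset V) (hx : x ∉ T) (hT : ∀ y ∈ T, x ∉ A y)
    (hQ : ∀ z, x ∈ A z → T ⊆ G A (G A {z})) :
    2 * W w T - W w (G A T) ≤ phi A w {x} := by
  by_contra hlt
  push Not at hlt
  set A' := Function.update A x T with hA'
  have e0 : A' x = T := by simp [hA']
  have e1 : ∀ v, v ≠ x → A' v = A v := fun v hv => by simp [hA', hv]
  have hO : Ori A' := by
    refine ⟨fun v => ?_, fun u v huv hvu => ?_⟩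
    · by_cases hv : v = x
      · rw [hv, e0]; exact hx
      · rw [e1 v hv]; exact h.1.1.1 v
    · by_cases hu : u = x
      · subst hu
        rw [e0] at huv
        have hv : v ≠ u := fun e => hx (e ▸ huv)
        rw [e1 v hv] at hvu; exact hT v huv hvu
      · by_cases hv : v = x
        · subst hv
          rw [e0] at hvu; rw [e1 u hu] at huv; exact hT u hvu huv
        · rw [e1 u hu] at huv; rw [e1 v hv] at hvu; exact h.1.1.2 u v huv hvu
  have hxG : x ∉ G A T := by
    intro hh
    rcases mem_G.1 hh with h1 | ⟨y, hy, h1⟩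
    · exact hx h1
    · exact hT y hy h1
  have px : phi A' w {x} = 2 * W w T - W w (G A T) := by
    have g1 : G A' {x} = {x} ∪ T := by ext y; simp [mem_G_single, e0]
    have g2 : G A' T = G A T := by
      ext y; simp only [mem_G]
      refine or_congr Iff.rfl (exists_congr fun z => and_congr_right fun hz => ?_)
      rw [e1 z (fun e => hx (e ▸ hz))]
    have g3 : G A' ({x} ∪ T) = {x} ∪ G A T := by
      rw [G_union, g1, g2, union_assoc, union_eq_right.2 (subset_G A T)]
    rw [phi, g1, g3, W_union (by simpa using hx), W_union (by simpa using hxG)]; ring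
  have hle : ∀ v, phi A w {v} ≤ phi A' w {v} := by
    intro v
    by_cases hv : v = x
    · rw [hv, px]; exact hlt.le
    · have g1 : G A' {v} = G A {v} := by ext y; simp [mem_G_single, e1 v hv]
      have g2 : G A' (G A {v}) ⊆ G A (G A {v}) := by
        intro y hy
        rcases mem_G.1 hy with h1 | ⟨z, hz, h1⟩
        · exact subset_G A _ h1
        · by_cases hzx : z = x
          · subst hzx
            rw [e0] at h1
            have : z ∈ A v := (mem_G_single.1 hz).resolve_left (fun e => hv e.symm)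
            exact hQ v this h1
          · rw [e1 z hzx] at h1; exact mem_G.2 (Or.inr ⟨z, hz, h1⟩)
      have := W_mono hw g2
      simp only [phi, g1]; linarith
  have := (h.2 A' hO hle).1 x
  rw [px] at this; linarith

/-- bridge: if no extremal counterexample with unit weights exists, the statement holds -/
theorem bridge (V : Type*) [Fintype V] (D : Digraph V)
    (hloop : ∀ v, ¬ D.Adj v v) (hopp : ∀ u v, D.Adj u v → ¬ D.Adj v u)
    (hno : ∀ [DecidableEq V] (A : V → Finset V), ¬ Cex A (fun _ => (1 : ℝ))) :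
    ∃ v : V, Set.ncard {u | D.Adj v u} ≤
      Set.ncard {w | w ≠ v ∧ ¬ D.Adj v w ∧ ∃ u, D.Adj v u ∧ D.Adj u w} := by
  classical
  by_contra hc
  push Not at hc
  let A : V → Finset V := fun v => univ.filter (fun u => D.Adj v u)
  refine hno A ⟨⟨fun v => by simpa [A] using hloop v, fun u v h => by
    simpa [A] using hopp u v (by simpa [A] using h)⟩, fun v => ?_⟩
  have h := hc v
  have e1 : {u | D.Adj v u} = ((G A {v} \ {v} : Finset V) : Set V) := by
    ext y
    simp only [Set.mem_ofPred_eq, coe_sdiff, coe_singleton, Set.mem_sdiff, mem_coe, mem_G_single,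
      Set.mem_singleton_iff, A, mem_filter, mem_univ, true_and]
    constructor
    · intro hy; exact ⟨Or.inr hy, fun e => hloop v (e ▸ hy)⟩
    · rintro ⟨h1 | h1, h2⟩
      · exact absurd h1 h2
      · exact h1
  have e2 : {w | w ≠ v ∧ ¬ D.Adj v w ∧ ∃ u, D.Adj v u ∧ D.Adj u w}
      = ((G A (G A {v}) \ G A {v} : Finset V) : Set V) := by
    ext y
    simp only [Set.mem_ofPred_eq, mem_coe, mem_sdiff, mem_G (S := G A {v}), mem_G_single, A,
      mem_filter, mem_univ, true_and]
    constructor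
    · rintro ⟨h1, h2, u, h3, h4⟩
      exact ⟨Or.inr ⟨u, Or.inr h3, h4⟩, by tauto⟩
    · rintro ⟨h1 | ⟨u, h3 | h3, h4⟩, h2⟩
      · exact absurd h1 h2
      · subst h3; exact absurd (Or.inr h4) h2
      · exact ⟨fun e => h2 (Or.inl e), fun e => h2 (Or.inr e), u, h3, h4⟩
  rw [e1, e2, Set.ncard_coe_finset, Set.ncard_coe_finset] at h
  have c : ∀ S : Finset V, W (fun _ => (1 : ℝ)) S = S.card := fun S => by simp [W]
  have h' : W (fun _ => (1 : ℝ)) (G A (G A {v}) \ G A {v}) < W (fun _ => (1 : ℝ)) (G A {v} \ {v}) := by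
    rw [c, c]; exact_mod_cast h
  rw [W_sdiff (subset_G A _), W_sdiff (subset_G A _)] at h'
  simp only [phi]; linarith

end Crest.Agent.R57
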