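import Crest.Agent.R57.Basic

set_option autoImplicit false
set_option linter.unusedSectionVars false

namespace Crest.Agent.R57H29

open Finset Crest.Agent.R57

variable {V : Type*} [Fintype V] [DecidableEq V]

lemma layer (w : V → ℝ) (hw : ∀ v, 0 ≤ w v) (Γ : V → Finset V) :
    ∀ (n : ℕ) (X Y : Finset V) (f F : V → ℝ), X.card = n →
      (∀ S, S ⊆ X → W w S ≤ W w (S.biUnion Γ ∩ Y)) → (∀ x ∈ X, 0 ≤ f x) → (∀ y ∈ Y, 0 ≤ F y) →
      (∀ x ∈ X, ∀ y ∈ Y, y ∈ Γ x → f x ≤ F y) →
      ∑ x ∈ X, w x * f x ≤ ∑ y ∈ Y, w y * F y := by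
  intro n
  induction n with
  | zero =>
    intro X Y f F hX _ _ hF _
    rw [card_eq_zero.1 hX, sum_empty]
    exact sum_nonneg fun y hy => mul_nonneg (hw y) (hF y hy)
  | succ n ih =>
    intro X Y f F hX hH hf hF hfF
    have hne : X.Nonempty := card_pos.1 (by omega)
    obtain ⟨x0, hx0, hmin⟩ := X.exists_min_image f hne
    set m := f x0 with hm
    set Y' := X.biUnion Γ ∩ Y with hY'
    have hY'Y : Y' ⊆ Y := inter_subset_right
    have h1 := ih (X.erase x0) Y' (fun x => f x - m) (fun y => F y - m)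
      (by rw [card_erase_of_mem hx0]; omega)
      (by
        intro S hS
        have hSX : S ⊆ X := hS.trans (erase_subset _ _)
        refine (hH S hSX).trans (W_mono hw ?_)
        intro y hy
        rw [mem_inter] at hy
        refine mem_inter.2 ⟨hy.1, mem_inter.2 ⟨?_, hy.2⟩⟩
        exact biUnion_subset_biUnion_of_subset_left Γ hSX hy.1)
      (fun x hx => sub_nonneg.2 (hmin x (mem_of_mem_erase hx)))
      (by
        intro y hy
        obtain ⟨hy1, hy2⟩ := mem_inter.1 hy
        obtain ⟨x, hx, hyx⟩ := mem_biUnion.1 hy1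
        have := hfF x hx y hy2 hyx
        have := hmin x hx
        linarith)
      (by
        intro x hx y hy hyx
        have := hfF x (mem_of_mem_erase hx) y (hY'Y hy) hyx
        linarith)
    have e1 : ∑ x ∈ X.erase x0, w x * (f x - m) = ∑ x ∈ X, w x * (f x - m) := by
      rw [← add_sum_erase X _ hx0]; simp [hm]
    have e2 : ∑ x ∈ X, w x * (f x - m) = ∑ x ∈ X, w x * f x - m * W w X := by
      simp only [W, mul_sum, ← sum_sub_distrib]; exact sum_congr rfl fun x _ => by ring
    have e3 : ∑ x ∈ Y', w x * (F x - m) = ∑ x ∈ Y', w x * F x - m * W w Y' := by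
      simp only [W, mul_sum, ← sum_sub_distrib]; exact sum_congr rfl fun x _ => by ring
    have e4 : ∑ y ∈ Y', w y * F y ≤ ∑ y ∈ Y, w y * F y :=
      sum_le_sum_of_subset_of_nonneg hY'Y fun y hy _ => mul_nonneg (hw y) (hF y hy)
    have e5 : m * W w X ≤ m * W w Y' := mul_le_mul_of_nonneg_left (hH X Subset.rfl) (hf x0 hx0)
    linarith

open Classical in
lemma fair (w : V → ℝ) (hw : ∀ v, 0 < w v) (Γ : V → Finset V) :
    ∀ (n : ℕ) (T0 B : Finset V) (c : ℝ), T0.card ≤ n →
      (∀ T, T ⊆ T0 → c * W w T ≤ W w (T.biUnion Γ ∩ B)) →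
      ∃ l : V → ℝ, (∀ t ∈ T0, c ≤ l t) ∧ W w (T0.biUnion Γ ∩ B) ≤ ∑ t ∈ T0, w t * l t ∧
        ∀ T, T ⊆ T0 → ∑ t ∈ T, w t * l t ≤
          W w (B.filter (fun z => ∃ t ∈ T, z ∈ Γ t ∧ ∀ t' ∈ T0, z ∈ Γ t' → l t ≤ l t')) := by
  have hw' : ∀ v, 0 ≤ w v := fun v => (hw v).le
  intro n
  induction n with
  | zero =>
    intro T0 B c hT _
    have : T0 = ∅ := card_eq_zero.1 (by omega)
    subst this
    refine ⟨fun _ => c, by simp, by simp [W], fun T hT => ?_⟩
    rw [subset_empty.1 hT, sum_empty]; exact W_nonneg hw' _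
  | succ n ih =>
    intro T0 B c hT hH
    rcases T0.eq_empty_or_nonempty with rfl | hne
    · exact ih ∅ B c (by simp) hH
    have hWpos : ∀ T : Finset V, T.Nonempty → 0 < W w T := fun T hT => sum_pos (fun x _ => hw x) hT
    obtain ⟨T1, hT1, hmin⟩ := (T0.powerset.filter (fun T => T.Nonempty)).exists_min_image
      (fun T => W w (T.biUnion Γ ∩ B) / W w T) ⟨T0, by simp [hne]⟩
    obtain ⟨hT1a, hT1b⟩ := mem_filter.1 hT1
    have hT10 : T1 ⊆ T0 := mem_powerset.1 hT1a
    set r := W w (T1.biUnion Γ ∩ B) / W w T1 with hr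
    have hr1 : r * W w T1 = W w (T1.biUnion Γ ∩ B) := by
      rw [hr]; field_simp [(hWpos T1 hT1b).ne']
    have hrT : ∀ T, T ⊆ T0 → r * W w T ≤ W w (T.biUnion Γ ∩ B) := by
      intro T hT
      rcases T.eq_empty_or_nonempty with rfl | hTn
      · simp [W]
      · have := hmin T (mem_filter.2 ⟨mem_powerset.2 hT, hTn⟩)
        exact (le_div_iff₀ (hWpos T hTn)).1 this
    have hcr : c ≤ r := by
      have := hH T1 hT10
      rw [← hr1] at this
      exact le_of_mul_le_mul_right this (hWpos T1 hT1b)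
    have split : ∀ T : Finset V, W w ((T ∪ T1).biUnion Γ ∩ B)
        = W w (T.biUnion Γ ∩ (B \ T1.biUnion Γ)) + W w (T1.biUnion Γ ∩ B) := by
      intro T
      rw [← W_union]
      · congr 1
        ext z
        simp only [union_biUnion, mem_inter, mem_union, mem_sdiff]
        tauto
      · rw [disjoint_left]
        intro z hz hz'
        exact (mem_sdiff.1 (mem_inter.1 hz).2).2 (mem_inter.1 hz').1
    obtain ⟨l', hl1, hl2, hl3⟩ := ih (T0 \ T1) (B \ T1.biUnion Γ) r
      (by
        have := card_sdiff_add_card_eq_card hT10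
        have := card_pos.2 hT1b
        omega)
      (by
        intro T hT
        have hd : Disjoint T T1 := disjoint_left.2 fun x hx hx1 => (mem_sdiff.1 (hT hx)).2 hx1
        have h1 := hrT (T ∪ T1) (union_subset (hT.trans sdiff_subset) hT10)
        rw [split, W_union hd] at h1
        linarith)
    let l : V → ℝ := fun t => if t ∈ T1 then r else l' t
    have hl_ge : ∀ t ∈ T0, r ≤ l t := by
      intro t ht
      by_cases h : t ∈ T1
      · simp [l, h]
      · simp only [l, h, if_false]; exact hl1 t (mem_sdiff.2 ⟨ht, h⟩)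
    have hsum : ∀ T : Finset V, ∑ t ∈ T, w t * l t
        = ∑ t ∈ T \ T1, w t * l' t + r * W w (T ∩ T1) := by
      intro T
      have : T = (T \ T1) ∪ (T ∩ T1) := (sdiff_union_inter T T1).symm
      conv_lhs => rw [this]
      rw [sum_union (disjoint_sdiff_inter T T1)]
      congr 1
      · exact sum_congr rfl fun t ht => by simp [l, (mem_sdiff.1 ht).2]
      · rw [W, mul_sum]
        exact sum_congr rfl fun t ht => by simp [l, (mem_inter.1 ht).2, mul_comm]
    refine ⟨l, fun t ht => hcr.trans (hl_ge t ht), ?_, ?_⟩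
    · rw [hsum, inter_eq_right.2 hT10, hr1]
      have := split (T0 \ T1)
      rw [sdiff_union_of_subset hT10] at this
      linarith
    · intro T hT
      rw [hsum]
      have h1 := hl3 (T \ T1) (sdiff_subset_sdiff hT Subset.rfl)
      have h2 := hrT (T ∩ T1) (inter_subset_left.trans hT)
      refine (add_le_add h1 h2).trans ?_
      rw [← W_union]
      · refine W_mono hw' ?_
        intro z hz
        rcases mem_union.1 hz with hz | hz
        · obtain ⟨hzB, t, ht, hzt, hm⟩ := mem_filter.1 hz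
          obtain ⟨hzB1, hzB2⟩ := mem_sdiff.1 hzB
          obtain ⟨ht1, ht2⟩ := mem_sdiff.1 ht
          refine mem_filter.2 ⟨hzB1, t, ht1, hzt, fun t' ht' hzt' => ?_⟩
          have h3 : t' ∉ T1 := fun h => hzB2 (mem_biUnion.2 ⟨t', h, hzt'⟩)
          simp only [l, ht2, h3, if_false]
          exact hm t' (mem_sdiff.2 ⟨ht', h3⟩) hzt'
        · obtain ⟨hz1, hzB⟩ := mem_inter.1 hz
          obtain ⟨t, ht, hzt⟩ := mem_biUnion.1 hz1
          obtain ⟨ht1, ht2⟩ := mem_inter.1 ht
          refine mem_filter.2 ⟨hzB, t, ht1, hzt, fun t' ht' _ => ?_⟩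
          have : l t = r := by simp [l, ht2]
          rw [this]; exact hl_ge t' ht'
      · rw [disjoint_left]
        intro z hz hz'
        have h3 := (mem_sdiff.1 (mem_filter.1 hz).1).2
        obtain ⟨t, ht, hzt⟩ := mem_biUnion.1 (mem_inter.1 hz').1
        exact h3 (mem_biUnion.2 ⟨t, (mem_inter.1 ht).2, hzt⟩)

lemma swap (w : V → ℝ) (X : V → Finset V) (g : V → V → ℝ) :
    ∑ t, w t * ∑ x ∈ univ.filter (fun x => t ∈ X x), w x * g x t
      = ∑ x, w x * ∑ t ∈ X x, w t * g x t := by
  have h1 : ∀ x, ∑ t ∈ X x, w t * g x t = ∑ t, if t ∈ X x then w t * g x t else 0 := by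
    intro x; simp [Finset.sum_ite_mem]
  simp only [sum_filter, h1, mul_sum]
  rw [sum_comm]
  refine sum_congr rfl fun x _ => sum_congr rfl fun t _ => ?_
  split_ifs <;> ring

end Crest.Agent.R57H29
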