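import Crest.Agent.R57.H29a

set_option autoImplicit false
set_option linter.unusedSectionVars false

namespace Crest.Agent.R57H29

open Finset Crest.Agent.R57

variable {V : Type*} [Fintype V] [DecidableEq V]

/-- closed out-neighbourhood of a vertex -/
def N (A : V → Finset V) (x : V) : Finset V := G A {x}

def Band (A : V → Finset V) (P : V → Finset V) : Prop := ∀ v z, z ∈ P v → v ∉ G A (N A z)

def ms (w : V → ℝ) (X : V → Finset V) : ℝ := ∑ x, w x * W w (X x)

open Classical in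
noncomputable def O (A P Q : V → Finset V) (x : V) : Finset V :=
  univ.filter (fun t => (∃ v ∈ N A x, t ∈ P v) ∧ (∃ z ∈ N A t, x ∈ Q z))

noncomputable def E (A : V → Finset V) (w : V → ℝ) (P Q : V → Finset V) : ℝ :=
  ms w (O A P Q) - ms w P - ms w Q

def Min (A : V → Finset V) (w : V → ℝ) (P Q : V → Finset V) : Prop :=
  Band A P ∧ Band A Q ∧ ∀ P' Q', Band A P' → Band A Q' → E A w P Q ≤ E A w P' Q'

open Classical in
noncomputable def Aa (A P Q : V → Finset V) (v : V) : Finset V :=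
  (P v).filter (fun t => ∃ x, v ∈ N A x ∧ t ∈ O A P Q x)

open Classical in
noncomputable def Os (A P Q : V → Finset V) (v : V) : Finset V :=
  univ.filter (fun z => (∃ t ∈ P v, z ∈ N A t) ∧ (∃ x ∈ Q z, v ∈ N A x))

lemma mem_O {A P Q : V → Finset V} {x t : V} :
    t ∈ O A P Q x ↔ (∃ v ∈ N A x, t ∈ P v) ∧ (∃ z ∈ N A t, x ∈ Q z) := by
  simp [O]

lemma mem_Aa {A P Q : V → Finset V} {v t : V} :
    t ∈ Aa A P Q v ↔ t ∈ P v ∧ ∃ x, v ∈ N A x ∧ t ∈ O A P Q x := by
  simp [Aa]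

lemma mem_Os {A P Q : V → Finset V} {v z : V} :
    z ∈ Os A P Q v ↔ (∃ t ∈ P v, z ∈ N A t) ∧ (∃ x ∈ Q z, v ∈ N A x) := by
  simp [Os]

lemma O_symm {A P Q : V → Finset V} {x t : V} : t ∈ O A P Q x ↔ x ∈ O A Q P t := by
  rw [mem_O, mem_O]; exact and_comm

lemma ms_swap (w : V → ℝ) (X : V → Finset V) :
    ms w X = ∑ t, w t * W w (univ.filter (fun x => t ∈ X x)) := by
  have := swap w X (fun _ _ => 1)
  simp only [mul_one] at this
  simp only [ms, W]; exact this.symm

lemma E_symm (A : V → Finset V) (w : V → ℝ) (P Q : V → Finset V) : E A w P Q = E A w Q P := by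
  have : ms w (O A P Q) = ms w (O A Q P) := by
    rw [ms_swap, ms]
    refine sum_congr rfl fun t _ => ?_
    congr 2
    ext x; simp only [mem_filter, mem_univ, true_and]; exact O_symm
  simp only [E, this]; ring

lemma Min.symm {A : V → Finset V} {w : V → ℝ} {P Q : V → Finset V} (h : Min A w P Q) :
    Min A w Q P :=
  ⟨h.2.1, h.1, fun P' Q' h1 h2 => by rw [E_symm, E_symm A w P']; exact h.2.2 Q' P' h2 h1⟩

lemma exists_min (A : V → Finset V) (w : V → ℝ) : ∃ P Q, Min A w P Q := by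
  classical
  obtain ⟨p, hp, hmin⟩ := (univ.filter
    (fun p : (V → Finset V) × (V → Finset V) => Band A p.1 ∧ Band A p.2)).exists_min_image
    (fun p => E A w p.1 p.2) ⟨(fun _ => ∅, fun _ => ∅), by simp [Band]⟩
  obtain ⟨h1, h2⟩ := (mem_filter.1 hp).2
  exact ⟨p.1, p.2, h1, h2, fun P' Q' a b => hmin (P', Q') (mem_filter.2 ⟨mem_univ _, a, b⟩)⟩

lemma Min.hall {A : V → Finset V} {w : V → ℝ} (hw : ∀ v, 0 < w v) {P Q : V → Finset V}
    (h : Min A w P Q) (t : V) (X : Finset V) (hX : ∀ x ∈ X, t ∈ O A P Q x) :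
    W w X ≤ W w (X.biUnion (N A) ∩ univ.filter (fun v => t ∈ Aa A P Q v)) := by
  have hw' : ∀ v, 0 ≤ w v := fun v => (hw v).le
  set Y := X.biUnion (N A) ∩ univ.filter (fun v => t ∈ Aa A P Q v) with hY
  let P' : V → Finset V := fun v => if v ∈ Y then (P v).erase t else P v
  have hsub : ∀ v, P' v ⊆ P v := by
    intro v; simp only [P']; split_ifs
    · exact erase_subset _ _
    · exact Subset.rfl
  have hB : Band A P' := fun v z hz => h.1 v z (hsub v hz)
  have hE := h.2.2 P' Q hB h.2.1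
  have e1 : ms w P' = ms w P - w t * W w Y := by
    rw [W_eq w Y, mul_sum, ms, ms, ← sum_sub_distrib]
    refine sum_congr rfl fun v _ => ?_
    simp only [P']
    split_ifs with hv
    · have ht : t ∈ P v := (mem_Aa.1 (mem_filter.1 (mem_inter.1 hv).2).2).1
      have := add_sum_erase (P v) w ht
      simp only [W]; rw [← this]; ring
    · ring
  have e2 : ms w (O A P' Q) ≤ ms w (O A P Q) - w t * W w X := by
    rw [W_eq w X, mul_sum, ms, ms, ← sum_sub_distrib]
    refine sum_le_sum fun x _ => ?_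
    have hO : O A P' Q x ⊆ O A P Q x := by
      intro s hs
      obtain ⟨⟨v, hv, hsv⟩, h2⟩ := mem_O.1 hs
      exact mem_O.2 ⟨⟨v, hv, hsub v hsv⟩, h2⟩
    split_ifs with hx
    · have ht := hX x hx
      have hO' : O A P' Q x ⊆ (O A P Q x).erase t := by
        intro s hs
        refine mem_erase.2 ⟨?_, hO hs⟩
        rintro rfl
        obtain ⟨⟨v, hv, hsv⟩, _⟩ := mem_O.1 hs
        have hvY : v ∈ Y := mem_inter.2 ⟨mem_biUnion.2 ⟨x, hx, hv⟩,
          mem_filter.2 ⟨mem_univ _, mem_Aa.2 ⟨hsub v hsv, x, hv, ht⟩⟩⟩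
        simp [P', hvY] at hsv
      have h1 := W_mono hw' hO'
      have h2 := add_sum_erase (O A P Q x) w ht
      simp only [W] at h1 ⊢
      have := mul_le_mul_of_nonneg_left h1 (hw' x)
      rw [← h2]; linarith
    · have := mul_le_mul_of_nonneg_left (W_mono hw' hO) (hw' x)
      linarith
  simp only [E] at hE
  have : w t * W w X ≤ w t * W w Y := by linarith
  exact le_of_mul_le_mul_left this (hw t)

lemma Min.prod {A : V → Finset V} {w : V → ℝ} (hw : ∀ v, 0 < w v) {P Q : V → Finset V}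
    (h : Min A w P Q) :
    ms w (Aa A P Q) + ms w (Aa A Q P) ≤ ms w (O A P Q) + ms w (Os A P Q) := by
  classical
  have hw' : ∀ v, 0 ≤ w v := fun v => (hw v).le
  let Bc : V → Finset V := fun x => univ.filter (fun z => x ∈ Aa A Q P z)
  have hfair := fun x => fair w hw (N A) _ (O A P Q x) (Bc x) 1 le_rfl (by
    intro T hT
    rw [one_mul]
    exact h.symm.hall hw x T (fun t ht => O_symm.1 (hT ht)))
  choose l hl1 hl2 hl3 using hfair
  let ρ : V → ℕ := fun x => (Fintype.equivFin V x : ℕ)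
  have hρ : ∀ x y, ρ x = ρ y → x = y := fun x y e =>
    (Fintype.equivFin V).injective (Fin.ext e)
  have hsel : ∀ v t, ∃ x, t ∈ Aa A P Q v → (v ∈ N A x ∧ t ∈ O A P Q x ∧
      ∀ x', v ∈ N A x' → t ∈ O A P Q x' → l x' t ≤ l x t ∧ (l x' t = l x t → ρ x ≤ ρ x')) := by
    intro v t
    by_cases ht : t ∈ Aa A P Q v
    · obtain ⟨_, x0, hx0⟩ := mem_Aa.1 ht
      let C := univ.filter (fun x => v ∈ N A x ∧ t ∈ O A P Q x)
      obtain ⟨x1, hx1, hmax⟩ := C.exists_max_image (fun x => l x t) ⟨x0, by simpa [C] using hx0⟩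
      obtain ⟨x2, hx2, hmin⟩ := (C.filter (fun x => l x t = l x1 t)).exists_min_image ρ
        ⟨x1, mem_filter.2 ⟨hx1, rfl⟩⟩
      obtain ⟨hx2C, hx2e⟩ := mem_filter.1 hx2
      have hx2' := (mem_filter.1 hx2C).2
      refine ⟨x2, fun _ => ⟨hx2'.1, hx2'.2, fun x' a b => ?_⟩⟩
      have hx' : x' ∈ C := mem_filter.2 ⟨mem_univ _, a, b⟩
      refine ⟨by rw [hx2e]; exact hmax x' hx', fun e => hmin x' (mem_filter.2 ⟨hx', ?_⟩)⟩
      rw [e, hx2e]
    · exact ⟨v, fun h => absurd h ht⟩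
  choose sel hsel using hsel
  -- (1) rows
  have h1 : ∀ v, ∑ t ∈ Aa A P Q v, w t * l (sel v t) t ≤ W w (Os A P Q v) := by
    intro v
    let T : V → Finset V := fun x => (Aa A P Q v).filter (fun t => sel v t = x)
    have hT : ∀ x, T x ⊆ O A P Q x := by
      intro x t ht
      obtain ⟨a, b⟩ := mem_filter.1 ht
      rw [← b]; exact (hsel v t a).2.1
    let Z : V → Finset V := fun x => (Bc x).filter (fun z => ∃ t ∈ T x, z ∈ N A t ∧
      ∀ t' ∈ O A P Q x, z ∈ N A t' → l x t ≤ l x t')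
    have hZ : ∀ x, ∑ t ∈ T x, w t * l x t ≤ W w (Z x) := by
      intro x
      refine (hl3 x (T x) (hT x)).trans (le_of_eq ?_)
      congr 1
    have hZm : ∀ x z, z ∈ Z x → x ∈ Q z ∧ v ∈ N A x ∧ ∃ t, t ∈ Aa A P Q v ∧ sel v t = x ∧
        z ∈ N A t ∧ ∀ t' ∈ O A P Q x, z ∈ N A t' → l x t ≤ l x t' := by
      intro x z hz
      obtain ⟨a, t, ht, b, c⟩ := mem_filter.1 hz
      obtain ⟨ht1, ht2⟩ := mem_filter.1 ht
      refine ⟨(mem_Aa.1 (mem_filter.1 a).2).1, ?_, t, ht1, ht2, b, c⟩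
      rw [← ht2]; exact (hsel v t ht1).1
    have hdisj : ((univ : Finset V) : Set V).PairwiseDisjoint Z := by
      intro x _ x' _ hne
      rw [Function.onFun, disjoint_left]
      intro z hz hz'
      obtain ⟨q, n, t, ta, ts, tz, tm⟩ := hZm x z hz
      obtain ⟨q', n', t', ta', ts', tz', tm'⟩ := hZm x' z hz'
      have o1 : t' ∈ O A P Q x := mem_O.2 ⟨⟨v, n, (mem_Aa.1 ta').1⟩, z, tz', q⟩
      have o2 : t ∈ O A P Q x' := mem_O.2 ⟨⟨v, n', (mem_Aa.1 ta).1⟩, z, tz, q'⟩
      have a1 := tm t' o1 tz'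
      have a2 := tm' t o2 tz
      have b1 := (hsel v t' ta').2.2 x n o1
      have b2 := (hsel v t ta).2.2 x' n' o2
      rw [ts'] at b1
      rw [ts] at b2
      have c1 := b1.2 (by linarith [b1.1, b2.1])
      have c2 := b2.2 (by linarith [b1.1, b2.1])
      exact hne (hρ _ _ (le_antisymm c2 c1))
    calc ∑ t ∈ Aa A P Q v, w t * l (sel v t) t
        = ∑ x, ∑ t ∈ T x, w t * l (sel v t) t :=
          (sum_fiberwise (Aa A P Q v) (sel v) (fun t => w t * l (sel v t) t)).symm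
      _ = ∑ x, ∑ t ∈ T x, w t * l x t := by
          refine sum_congr rfl fun x _ => sum_congr rfl fun t ht => ?_
          rw [(mem_filter.1 ht).2]
      _ ≤ ∑ x, W w (Z x) := sum_le_sum fun x _ => hZ x
      _ = W w (univ.biUnion Z) := (sum_biUnion hdisj).symm
      _ ≤ W w (Os A P Q v) := by
          refine W_mono hw' fun z hz => ?_
          obtain ⟨x, _, hx⟩ := mem_biUnion.1 hz
          obtain ⟨q, n, t, ta, _, tz, _⟩ := hZm x z hx
          exact mem_Os.2 ⟨⟨t, (mem_Aa.1 ta).1, tz⟩, x, q, n⟩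
  -- (2) columns
  have h2 : ∀ t, ∑ x ∈ univ.filter (fun x => t ∈ O A P Q x), w x * (l x t - 1)
      ≤ ∑ v ∈ univ.filter (fun v => t ∈ Aa A P Q v), w v * (l (sel v t) t - 1) := by
    intro t
    refine layer w hw' (N A) _ _ _ _ _ rfl ?_ ?_ ?_ ?_
    · intro S hS
      exact h.hall hw t S (fun x hx => (mem_filter.1 (hS hx)).2)
    · intro x hx
      exact sub_nonneg.2 (hl1 x t (mem_filter.1 hx).2)
    · intro v hv
      exact sub_nonneg.2 (hl1 _ t (hsel v t (mem_filter.1 hv).2).2.1)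
    · intro x hx v hv hvx
      have := ((hsel v t (mem_filter.1 hv).2).2.2 x hvx (mem_filter.1 hx).2).1
      linarith
  have h3 := sum_le_sum (fun t (_ : t ∈ (univ : Finset V)) =>
    mul_le_mul_of_nonneg_left (h2 t) (hw' t))
  rw [swap w (O A P Q) (fun x t => l x t - 1),
    swap w (Aa A P Q) (fun v t => l (sel v t) t - 1)] at h3
  have h4 : ms w (Aa A Q P) - ms w (O A P Q)
      ≤ ∑ x, w x * ∑ t ∈ O A P Q x, w t * (l x t - 1) := by
    rw [ms_swap, ms, ← sum_sub_distrib]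
    refine sum_le_sum fun x _ => ?_
    rw [← mul_sub]
    refine mul_le_mul_of_nonneg_left ?_ (hw' x)
    have a : W w (Bc x) ≤ W w ((O A P Q x).biUnion (N A) ∩ Bc x) := by
      refine W_mono hw' fun z hz => mem_inter.2 ⟨?_, hz⟩
      obtain ⟨_, t, ht, ho⟩ := mem_Aa.1 (mem_filter.1 hz).2
      exact mem_biUnion.2 ⟨t, O_symm.2 ho, ht⟩
    have b : ∑ t ∈ O A P Q x, w t * (l x t - 1)
        = ∑ t ∈ O A P Q x, w t * l x t - W w (O A P Q x) := by
      simp only [W, ← sum_sub_distrib]; exact sum_congr rfl fun t _ => by ring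
    have c := hl2 x
    rw [b]
    exact sub_le_sub_right (a.trans c) _
  have h5 : ∑ v, w v * ∑ t ∈ Aa A P Q v, w t * (l (sel v t) t - 1)
      ≤ ms w (Os A P Q) - ms w (Aa A P Q) := by
    rw [ms, ms, ← sum_sub_distrib]
    refine sum_le_sum fun v _ => ?_
    rw [← mul_sub]
    refine mul_le_mul_of_nonneg_left ?_ (hw' v)
    have b : ∑ t ∈ Aa A P Q v, w t * (l (sel v t) t - 1)
        = ∑ t ∈ Aa A P Q v, w t * l (sel v t) t - W w (Aa A P Q v) := by
      simp only [W, ← sum_sub_distrib]; exact sum_congr rfl fun t _ => by ring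
    rw [b]
    exact sub_le_sub_right (h1 v) _
  linarith

end Crest.Agent.R57H29
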