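import Crest.Agent.R57.H29b

set_option autoImplicit false
set_option linter.unusedSectionVars false

namespace Crest.Agent.R57H29

open Finset Crest.Agent.R57

variable {V : Type*} [Fintype V] [DecidableEq V]

lemma mem_G_N {A : V → Finset V} {S : Finset V} {z : V} : z ∈ G A S ↔ ∃ t ∈ S, z ∈ N A t := by
  simp only [mem_G (S := S), N, mem_G_single]
  constructor
  · rintro (h | ⟨x, hx, h⟩)
    · exact ⟨z, h, Or.inl rfl⟩
    · exact ⟨x, hx, Or.inr h⟩
  · rintro ⟨t, ht, rfl | h⟩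
    · exact Or.inl ht
    · exact Or.inr ⟨t, ht, h⟩

lemma N_refl (A : V → Finset V) (x : V) : x ∈ N A x := mem_G_single.2 (Or.inl rfl)

lemma N_anti {A : V → Finset V} (hA : Ori A) {x y : V} (h1 : y ∈ N A x) (h2 : x ∈ N A y) :
    y = x := by
  rcases mem_G_single.1 h1 with h | h
  · exact h
  · rcases mem_G_single.1 h2 with h' | h'
    · exact h'.symm
    · exact absurd h' (hA.2 _ _ h)

noncomputable def S0 (A P Q : V → Finset V) (v : V) : Finset V := insert v (P v \ Aa A P Q v)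

lemma cross {A P Q : V → Finset V} (hA : Ori A) (hP : Band A P) (hQ : Band A Q) {v z : V}
    (h1 : z ∈ G A (S0 A P Q v)) (h2 : v ∈ G A (insert z (Q z))) : z = v := by
  obtain ⟨t, ht, hzt⟩ := mem_G_N.1 h1
  obtain ⟨x, hx, hvx⟩ := mem_G_N.1 h2
  rcases mem_insert.1 ht with rfl | ht
  · rcases mem_insert.1 hx with rfl | hx
    · exact N_anti hA hzt hvx
    · exact absurd (mem_G_N.2 ⟨t, hvx, hzt⟩) (hQ z x hx)
  · obtain ⟨ht1, ht2⟩ := mem_sdiff.1 ht
    rcases mem_insert.1 hx with rfl | hx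
    · exact absurd (mem_G_N.2 ⟨x, hzt, hvx⟩) (hP v t ht1)
    · exact absurd (mem_Aa.2 ⟨ht1, x, hvx, mem_O.2 ⟨⟨v, hvx, ht1⟩, z, hzt, hx⟩⟩) ht2

lemma S0_sub (A P Q : V → Finset V) (v : V) : S0 A P Q v ⊆ insert v (P v) :=
  insert_subset_insert _ sdiff_subset

lemma ms_eq (w : V → ℝ) (X : V → Finset V) :
    ms w X = ∑ v, ∑ z, if z ∈ X v then w v * w z else 0 := by
  refine sum_congr rfl fun v _ => ?_
  rw [W_eq, mul_sum]
  exact sum_congr rfl fun z _ => by split_ifs <;> ring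

lemma ms_eq' (w : V → ℝ) (X : V → Finset V) :
    ms w X = ∑ v, ∑ z, if v ∈ X z then w v * w z else 0 := by
  rw [ms_eq, sum_comm]
  exact sum_congr rfl fun v _ => sum_congr rfl fun z _ => by split_ifs <;> ring

lemma three (w : V → ℝ) (hw : ∀ v, 0 ≤ w v) (X Y Z : V → Finset V)
    (h1 : ∀ v z, z ∈ X v → v ∈ Y z → z = v) (h2 : ∀ v z, z ∈ Z v → z ∉ X v ∧ v ∉ Y z) :
    ms w X + ms w Y + ms w Z ≤ ms w (fun _ => univ) + ms w (fun v => {v}) := by
  rw [ms_eq w X, ms_eq' w Y, ms_eq w Z, ms_eq w (fun _ => univ), ms_eq w (fun v => {v})]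
  simp only [← sum_add_distrib]
  refine sum_le_sum fun v _ => sum_le_sum fun z _ => ?_
  have h0 : 0 ≤ w v * w z := mul_nonneg (hw v) (hw z)
  have a1 := h1 v z
  have a2 := h2 v z
  by_cases b1 : z ∈ X v <;> by_cases b2 : v ∈ Y z <;> by_cases b3 : z ∈ Z v <;>
    by_cases b4 : z = v <;> simp_all

lemma compl_ms (w : V → ℝ) (X : V → Finset V) :
    ms w (fun v => univ.filter (fun z => v ∉ X z)) + ms w X = ms w (fun _ => univ) := by
  rw [ms_eq' w X, ms_eq w (fun _ => univ), ms_eq]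
  simp only [← sum_add_distrib]
  refine sum_congr rfl fun v _ => sum_congr rfl fun z _ => ?_
  by_cases b : v ∈ X z <;> simp [b]

lemma ms_S0 {A P : V → Finset V} (w : V → ℝ) (Q : V → Finset V) (hP : Band A P) :
    ms w (S0 A P Q) = ms w P - ms w (Aa A P Q) + ms w (fun v => {v}) := by
  simp only [ms, ← sum_sub_distrib, ← sum_add_distrib]
  refine sum_congr rfl fun v _ => ?_
  have hv : v ∉ P v \ Aa A P Q v := fun h =>
    hP v v (mem_sdiff.1 h).1 (subset_G A _ (N_refl A v))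
  have hs : Aa A P Q v ⊆ P v := fun t ht => (mem_Aa.1 ht).1
  have e := W_sdiff (w := w) hs
  have e2 : W w (S0 A P Q v) = w v + W w (P v \ Aa A P Q v) := sum_insert hv
  have e3 : W w ({v} : Finset V) = w v := sum_singleton _ _
  rw [e2, e, e3]; ring

lemma Min.fin {A : V → Finset V} {w : V → ℝ} (hA : Ori A) (hw : ∀ v, 0 < w v)
    {P Q : V → Finset V} (h : Min A w P Q) :
    ∑ v, w v * phi A w (S0 A P Q v) + ∑ v, w v * phi A w (S0 A Q P v) ≤ 0 := by
  have hw' : ∀ v, 0 ≤ w v := fun v => (hw v).le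
  have hP := h.1
  have hQ := h.2.1
  let P2 : V → Finset V := fun v => univ.filter (fun z => v ∉ G A (G A (S0 A Q P z)))
  let Q2 : V → Finset V := fun v => univ.filter (fun z => v ∉ G A (G A (S0 A P Q z)))
  have hb : ∀ P Q : V → Finset V,
      Band A (fun v => univ.filter (fun z => v ∉ G A (G A (S0 A P Q z)))) := by
    intro P Q v z hz hv
    refine (mem_filter.1 hz).2 (G_mono A (G_mono A ?_) hv)
    exact singleton_subset_iff.2 (mem_insert_self _ _)
  have hE := h.2.2 P2 Q2 (hb Q P) (hb P Q)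
  have c1 : ∀ v z, z ∈ G A (S0 A P Q v) → v ∈ G A (S0 A Q P z) → z = v := fun v z a b =>
    cross hA hP hQ a (G_mono A (S0_sub A Q P z) b)
  have i1 := three w hw' (fun v => G A (S0 A P Q v)) (fun v => G A (S0 A Q P v)) (Os A P Q) c1 (by
    intro v z hz
    obtain ⟨⟨t, ht, hzt⟩, x, hx, hvx⟩ := mem_Os.1 hz
    have hne : z ≠ v := by
      rintro rfl
      exact hP z t ht (subset_G A _ hzt)
    exact ⟨fun a => hne (cross hA hP hQ a (mem_G_N.2 ⟨x, mem_insert_of_mem hx, hvx⟩)),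
      fun a => hne (cross hA hQ hP a (mem_G_N.2 ⟨t, mem_insert_of_mem ht, hzt⟩)).symm⟩)
  have i2 := three w hw' (fun v => G A (S0 A P Q v)) (fun v => G A (S0 A Q P v)) (O A P2 Q2) c1 (by
    intro x t ht
    obtain ⟨⟨v, hv, htv⟩, z, hz, hxz⟩ := mem_O.1 ht
    exact ⟨fun a => (mem_filter.1 hxz).2 (mem_G_N.2 ⟨t, a, hz⟩),
      fun a => (mem_filter.1 htv).2 (mem_G_N.2 ⟨x, a, hv⟩)⟩)
  have i3 : ms w P2 + _ = _ := compl_ms w (fun z => G A (G A (S0 A Q P z)))
  have i4 : ms w Q2 + _ = _ := compl_ms w (fun z => G A (G A (S0 A P Q z)))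
  have i5 := ms_S0 w Q hP
  have i6 := ms_S0 w P hQ
  have i7 := h.prod hw
  have e : ∀ S : V → Finset V, ∑ v, w v * phi A w (S v)
      = 2 * ms w (fun v => G A (S v)) - ms w S - ms w (fun v => G A (G A (S v))) := by
    intro S
    simp only [ms, phi, mul_sum, ← sum_sub_distrib]
    exact sum_congr rfl fun v _ => by ring
  rw [e, e]
  simp only [E] at hE
  linarith

lemma strict [Nonempty V] {A : V → Finset V} (hA : Ori A) (hne : ∀ v, (A v).Nonempty)
    (S : V → Finset V) (h1 : ∀ v, v ∈ S v) (h2 : ∀ v z, z ∈ S v → z ≠ v → v ∉ A z) :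
    ∃ v, G A (S v) ≠ S v := by
  classical
  by_contra hc
  push Not at hc
  obtain ⟨C, hC, hmin⟩ := ((univ : Finset (Finset V)).filter
    (fun C => C.Nonempty ∧ ∀ x ∈ C, A x ⊆ C)).exists_min_image card
    ⟨univ, by simp⟩
  obtain ⟨⟨v, hv⟩, hcl⟩ := (mem_filter.1 hC).2
  have hS : ∀ x ∈ S v, A x ⊆ S v := fun x hx y hy => by
    rw [← hc v]; exact mem_G.2 (Or.inr ⟨x, hx, hy⟩)
  have a1 := hmin (C ∩ S v) (mem_filter.2 ⟨mem_univ _, ⟨v, mem_inter.2 ⟨hv, h1 v⟩⟩,
    fun x hx => subset_inter (hcl x (mem_inter.1 hx).1) (hS x (mem_inter.1 hx).2)⟩)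
  have a2 : C ∩ S v = C := eq_of_subset_of_card_le inter_subset_left a1
  have a3 : C ⊆ S v := by rw [← a2]; exact inter_subset_right
  obtain ⟨u, hu⟩ := hne v
  have a4 := hmin (C.erase v) (mem_filter.2 ⟨mem_univ _,
    ⟨u, mem_erase.2 ⟨fun e => hA.1 v (e ▸ hu), hcl v hv hu⟩⟩, fun x hx y hy => by
      obtain ⟨hxv, hxC⟩ := mem_erase.1 hx
      refine mem_erase.2 ⟨?_, hcl x hxC hy⟩
      rintro rfl
      exact h2 y x (a3 hxC) hxv hy⟩)
  have := card_erase_lt_of_mem hv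
  omega

theorem no_cex [Nonempty V] {A : V → Finset V} {w : V → ℝ} (hw : ∀ v, 0 < w v) : ¬ Cex A w := by
  intro h0
  obtain ⟨B, hB⟩ := exists_ext h0
  have hw' : ∀ v, 0 ≤ w v := fun v => (hw v).le
  have hO := hB.1.1
  obtain ⟨P, Q, h⟩ := exists_min B w
  have hf := h.fin hO hw
  have hne : ∀ v, (B v).Nonempty := by
    intro v
    by_contra hv
    rw [not_nonempty_iff_eq_empty] at hv
    have e : G B {v} = {v} := by ext y; simp [mem_G_single, hv]
    have := hB.1.2 v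
    simp only [phi, e] at this
    linarith
  obtain ⟨v, hv⟩ := strict hO hne (S0 B P Q) (fun v => mem_insert_self _ _) (by
    intro v z hz hzv hvz
    have hz' := (mem_sdiff.1 ((mem_insert.1 hz).resolve_left hzv)).1
    exact h.1 v z hz' (subset_G B _ (mem_G_single.2 (Or.inr hvz))))
  have p1 : 0 < ∑ v, w v * phi B w (S0 B P Q v) :=
    sum_pos' (fun x _ => mul_nonneg (hw' x) (hB.phi_nonneg hw' _))
      ⟨v, mem_univ _, mul_pos (hw v) (hB.phi_pos hw' _ hv)⟩
  have p2 : 0 ≤ ∑ v, w v * phi B w (S0 B Q P v) :=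
    sum_nonneg fun x _ => mul_nonneg (hw' x) (hB.phi_nonneg hw' _)
  linarith

end Crest.Agent.R57H29
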